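import Vale.Agent.Lib.P067.SkelMain

/-!
# P067: the dimensions for which bounded degree coboundary expanders exist form an initial segment

The `d`-skeleton of a `(d+1)`-dimensional `ε`-coboundary expander of degree at most `D` is a
`d`-dimensional `ε / ((d+2) D^2)`-coboundary expander of degree at most `(d+2) D`, with the same
vertices.  Hence the statement of Q1 in dimension `d+1` implies the statement in dimension `d`.
-/

namespace Vale.Agent.Results.P067.A_Skeleton

open Vale.Agent.Lib.P067

/-- connectedness: every `F_2`-valued function on the vertices with zero coboundary (that is, taking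
equal values at the two ends of each edge) is constant -/
def Connected {V : Type} [DecidableEq V] (X : Cplx V) : Prop :=
  ∀ f : X.Cochain 0, X.cobdry 0 f = 0 → ∃ c : ZMod 2, ∀ v, f v = c

/-- the statement of Q1 in dimension `d`: for some `D` and `ε > 0` there are connected pure
`d`-dimensional `ε`-coboundary expanders of degree at most `D` with arbitrarily many vertices -/
def HasFamily (d : ℕ) : Prop :=
  ∃ (D : ℕ) (ε : ℝ), 0 < ε ∧ ∀ n : ℕ, ∃ (V : Type) (_ : DecidableEq V) (X : Cplx V),
    n ≤ (X.face 0).card ∧ Connected X ∧ X.IsPure d ∧ X.degree d ≤ D ∧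
      X.IsCoboundaryExpander d ε

theorem faces_nonempty {V : Type} [DecidableEq V] (X : Cplx V) (h : 1 ≤ (X.face 0).card) :
    X.faces.Nonempty := by
  obtain ⟨s, hs⟩ := Finset.card_pos.1 h
  exact ⟨s, (Cplx.mem_face.1 hs).1⟩

theorem step (d : ℕ) (hd : 1 ≤ d) (h : HasFamily (d + 1)) : HasFamily d := by
  obtain ⟨D, ε, hε, hfam⟩ := h
  have hDpos : 0 < D := by
    obtain ⟨V, _, X, hn, -, hp, hD, -⟩ := hfam 1
    obtain ⟨s, hs⟩ := faces_nonempty X hn
    exact lt_of_lt_of_le (Cplx.topDeg_pos hp hs) (Cplx.topDeg_le hD hs)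
  have hε' : 0 < ε / (((d : ℝ) + 2) * (D : ℝ) ^ 2) := by
    have : (0 : ℝ) < D := by exact_mod_cast hDpos
    positivity
  refine ⟨D * (d + 2), ε / (((d : ℝ) + 2) * (D : ℝ) ^ 2), hε', fun n => ?_⟩
  obtain ⟨V, inst, X, hn, -, hp, hD, hX⟩ := hfam (max n 1)
  have hne := faces_nonempty X ((le_max_right n 1).trans hn)
  have hY := Cplx.skel_expander hε hne hp hD hX
  have hpY := Cplx.skel_pure hp
  refine ⟨V, inst, X.skel d, ?_, ?_, hpY, Cplx.degree_skel_le hp hD, hY⟩
  · rw [X.face_skel (Nat.zero_le d)]
    exact (le_max_left n 1).trans hn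
  · intro f hf
    exact Cplx.isCobdry_of_cocycle hε' hpY (Cplx.top_pos (Cplx.skel_nonempty d hne) hpY) hY
      (by omega) f hf

theorem down (d e : ℕ) (hd : 1 ≤ d) (hde : d ≤ e) (h : HasFamily e) : HasFamily d := by
  induction e, hde using Nat.le_induction with
  | base => exact h
  | succ e hde ih => exact ih (step e (by omega) h)

/-- (1) The `d`-skeleton of a nonempty pure `(d+1)`-dimensional `ε`-coboundary expander of degree at
most `D` has the same `i`-faces for `i ≤ d`, is pure `d`-dimensional, has degree at most `D (d+2)`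
and is an `ε / ((d+2) D^2)`-coboundary expander.
(2) The set of `d ≥ 1` for which the statement of Q1 holds is closed downwards.
(3) Q1 (the statement for all `d ≥ 3`) is equivalent to the statement for arbitrarily large `d`. -/
theorem result :
    (∀ (V : Type) [DecidableEq V] (X : Cplx V) (d D : ℕ) (ε : ℝ), 0 < ε → X.faces.Nonempty →
      X.IsPure (d + 1) → X.degree (d + 1) ≤ D → X.IsCoboundaryExpander (d + 1) ε →
      (∀ i ≤ d, (X.skel d).face i = X.face i) ∧ (X.skel d).IsPure d ∧
        (X.skel d).degree d ≤ D * (d + 2) ∧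
        (X.skel d).IsCoboundaryExpander d (ε / (((d : ℝ) + 2) * (D : ℝ) ^ 2))) ∧
    (∀ d e : ℕ, 1 ≤ d → d ≤ e → HasFamily e → HasFamily d) ∧
    ((∀ d : ℕ, 3 ≤ d → HasFamily d) ↔ ∀ N : ℕ, ∃ d : ℕ, N ≤ d ∧ HasFamily d) := by
  refine ⟨?_, down, ?_, ?_⟩
  · intro V _ X d D ε hε hne hp hD hX
    exact ⟨fun i hi => X.face_skel hi, Cplx.skel_pure hp, Cplx.degree_skel_le hp hD,
      Cplx.skel_expander hε hne hp hD hX⟩
  · intro h N
    exact ⟨max N 3, le_max_left N 3, h _ (le_max_right N 3)⟩
  · intro h d hd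
    obtain ⟨e, hde, he⟩ := h d
    exact down d e (by omega) hde he

end Vale.Agent.Results.P067.A_Skeleton
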