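import Vale.Agent.Results.P067.LevelProduct
import Vale.Agent.Results.P067.A_Skeleton

/-!
# P067: the level trade-off and the skeleton theorem in one statement
-/

namespace Vale.Agent.Results.P067.A_Combined

open Vale.Agent.Lib.P067 Vale.Agent.Results.P067.A_Skeleton

/-- the level trade-off: the product of the expansion constants of the `d = e + 1` levels times the
number of vertices is bounded by the top `F_2`-Betti number -/
def S1 : Prop :=
  ∀ (V : Type) [DecidableEq V] (X : Cplx V) (e D : ℕ) (ε : ℕ → ℝ),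
    (∀ i, i < e + 1 → 0 < ε i) → X.IsPure (e + 1) → X.degree (e + 1) ≤ D →
    (∀ i, i < e + 1 → X.ExpandsAt (e + 1) i (ε i)) →
    (∏ i ∈ Finset.range (e + 1), min (ε i) 1) * ((X.face 0).card : ℝ) ≤
      (2 * ((D : ℝ) * ((e : ℝ) + 2)) ^ 2) ^ (e + 1) *
        ((Module.finrank (ZMod 2)
          (X.Cochain (e + 1) ⧸ LinearMap.range (X.cobdry e)) : ℝ) + 1)

/-- the skeleton theorem -/
def S2 : Prop :=
  ∀ (V : Type) [DecidableEq V] (X : Cplx V) (d D : ℕ) (ε : ℝ), 0 < ε → X.faces.Nonempty →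
    X.IsPure (d + 1) → X.degree (d + 1) ≤ D → X.IsCoboundaryExpander (d + 1) ε →
    (∀ i ≤ d, (X.skel d).face i = X.face i) ∧ (X.skel d).IsPure d ∧
      (X.skel d).degree d ≤ D * (d + 2) ∧
      (X.skel d).IsCoboundaryExpander d (ε / (((d : ℝ) + 2) * (D : ℝ) ^ 2))

theorem result :
    S1 ∧ S2 ∧ (∀ d e : ℕ, 1 ≤ d → d ≤ e → HasFamily e → HasFamily d) ∧
    ((∀ d : ℕ, 3 ≤ d → HasFamily d) ↔ ∀ N : ℕ, ∃ d : ℕ, N ≤ d ∧ HasFamily d) :=
  ⟨fun V _ X e D ε h1 h2 h3 h4 => LevelProduct.result V X e D ε h1 h2 h3 h4,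
    A_Skeleton.result.1, A_Skeleton.result.2.1, A_Skeleton.result.2.2⟩

end Vale.Agent.Results.P067.A_Combined
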