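import Vale.Agent.Lib.P067.Level

/-!
# P067, hand-in `LevelProduct`

A trade-off between the coboundary expansion constants of the different levels.

Let `X` be a finite pure `d`-dimensional simplicial complex, `d = e + 1`, in which every vertex
lies in at most `D` top-dimensional faces, and suppose that for every level `0 ≤ i < d` the
coboundary expansion inequality `‖δ f‖_(i+1) ≥ ε_i dist_i(f, B^i)` holds for all `f` in `C^i(X)`,
with constants `ε_i > 0` that may depend on the level.  Then

  `(∏_{i<d} min(ε_i,1)) * |X(0)| ≤ (2 * (D * (d+1))^2)^d * (dim H^d(X; F_2) + 1)`,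

where `H^d(X; F_2) = C^d(X) / B^d(X)` is the top cohomology.
-/

namespace Vale.Agent.Results.P067.LevelProduct

open Vale.Agent.Lib.P067

theorem result (V : Type) [DecidableEq V] (X : Cplx V) (e D : ℕ) (ε : ℕ → ℝ)
    (hε : ∀ i, i < e + 1 → 0 < ε i)
    (hpure : X.IsPure (e + 1)) (hdeg : X.degree (e + 1) ≤ D)
    (hexp : ∀ i, i < e + 1 → X.ExpandsAt (e + 1) i (ε i)) :
    (∏ i ∈ Finset.range (e + 1), min (ε i) 1) * ((X.face 0).card : ℝ) ≤
      (2 * ((D : ℝ) * ((e : ℝ) + 2)) ^ 2) ^ (e + 1) *
        ((Module.finrank (ZMod 2)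
          (X.Cochain (e + 1) ⧸ LinearMap.range (X.cobdry e)) : ℝ) + 1) :=
  Cplx.prod_mul_card_vertices_le (ε := fun i => min (ε i) 1)
    (fun i hi => lt_min (hε i hi) one_pos) (fun i _ => min_le_right _ _) hpure hdeg
    (fun i hi => (hexp i hi).mono (min_le_left _ _))

end Vale.Agent.Results.P067.LevelProduct
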