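import Vale.Agent.Lib.P067.TopBetti

/-!
# P067, hand-in `TopBetti`

A necessary condition for bounded degree coboundary expanders: the top `F_2`-Betti number
grows linearly with the number of vertices.

Let `X` be a finite pure `(e+1)`-dimensional simplicial complex in which every vertex lies in at
most `D` top-dimensional faces, and assume that `X` is an `ε`-coboundary expander, `ε > 0`
(weights, norms, `B^i`, distances exactly as in the problem file).  Then

  `min(ε,1)^(e+1) * |X(0)| ≤ (2 * (D * (e+2))^2)^(e+1) * (dim H^(e+1)(X; F_2) + 1)`,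

where `H^(e+1)(X; F_2) = C^(e+1)(X) / B^(e+1)(X)` is the top cohomology.
-/

namespace Vale.Agent.Results.P067.TopBetti

open Vale.Agent.Lib.P067

theorem result (V : Type) [DecidableEq V] (X : Cplx V) (e D : ℕ) (ε : ℝ) (hε : 0 < ε)
    (hpure : X.IsPure (e + 1)) (hdeg : X.degree (e + 1) ≤ D)
    (hexp : X.IsCoboundaryExpander (e + 1) ε) :
    (min ε 1) ^ (e + 1) * ((X.face 0).card : ℝ) ≤
      (2 * ((D : ℝ) * ((e : ℝ) + 2)) ^ 2) ^ (e + 1) *
        ((Module.finrank (ZMod 2)
          (X.Cochain (e + 1) ⧸ LinearMap.range (X.cobdry e)) : ℝ) + 1) :=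
  Cplx.card_vertices_le_betti (lt_min hε one_pos) (min_le_right _ _) hpure hdeg
    (hexp.mono (min_le_left _ _))

end Vale.Agent.Results.P067.TopBetti
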